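import Vale.Agent.H44.ThorpTV

namespace Vale.Agent.Results.P162.B_ThorpTmixLower

open Vale.Agent.H44

/-- Thorp shuffle of `n = 2 * 2 ^ k = 2 ^ (k + 1)` cards, `k ≥ 1`: after any number
`t ≤ 2 * k` of shuffles the law of the deck is at total variation distance at least `1 / 3`
from uniform; consequently every `t` with distance at most `1 / 4` satisfies `t ≥ 2 * k + 1`,
that is, `t_mix(2 ^ d) ≥ 2 * d - 1` for `d = k + 1 ≥ 2`. -/
theorem result : ∀ k : ℕ, 1 ≤ k →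
    (∀ t : ℕ, t ≤ 2 * k →
      (1 : ℝ) / 3 ≤ tvDist (thorpLaw (2 ^ k) t) (unifLaw (Equiv.Perm (Fin (2 * 2 ^ k))))) ∧
    (∀ t : ℕ, tvDist (thorpLaw (2 ^ k) t) (unifLaw (Equiv.Perm (Fin (2 * 2 ^ k)))) ≤ 1 / 4 →
      2 * k + 1 ≤ t) := by
  intro k hk
  refine ⟨fun t ht => thorp_tv_lower k hk t ht, ?_⟩
  intro t ht
  by_contra hlt
  have h1 := thorp_tv_lower k hk t (by omega)
  linarith

end Vale.Agent.Results.P162.B_ThorpTmixLower
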